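import Vale.Agent.P200F.FinF

namespace Vale.Agent.Results.P200.LexTopEqual

open MvPolynomial Vale.Agent.P200L

/-- The lex-plus-powers conjecture when all degrees from the third one on are equal. -/
theorem result {K : Type*} [Field K] {n c : ℕ} (hc : c ≤ n) (a : Fin c → ℕ)
    (h2 : ∀ i, 2 ≤ a i) (hmono : Monotone a)
    (htop : ∀ i j : Fin c, 2 ≤ (i : ℕ) → 2 ≤ (j : ℕ) → a i = a j)
    (f : Fin c → MvPolynomial (Fin n) K) (hf : ∀ i, (f i).IsHomogeneous (a i))
    (hreg : RingTheory.Sequence.IsWeaklyRegular (MvPolynomial (Fin n) K) (List.ofFn f))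
    (I : Ideal (MvPolynomial (Fin n) K)) (hI : ∀ i, f i ∈ I) :
    ∃ J : Ideal (MvPolynomial (Fin n) K), J.restrictScalars K = lpp I (pw K hc a) ∧
      ∀ p j : ℕ, betti I p j ≤ betti J p j :=
  Vale.Agent.P200F.lpp_mainF hc a h2 hmono htop f hf
    ((Vale.Agent.P200.isReg_iff f).mpr hreg) I hI

end Vale.Agent.Results.P200.LexTopEqual
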