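import Vale.Agent.P200M.Top2

namespace Vale.Agent.Results.P200.TwoSmall

open MvPolynomial

/-- The Eisenbud-Green-Harris conjecture when all degrees from the third one on are equal. -/
theorem result {K : Type*} [Field K] {n c : ℕ} (hc : c ≤ n) (a : Fin c → ℕ)
    (h2 : ∀ i, 2 ≤ a i) (hmono : Monotone a)
    (htop : ∀ i j : Fin c, 2 ≤ (i : ℕ) → 2 ≤ (j : ℕ) → a i = a j)
    (f : Fin c → MvPolynomial (Fin n) K) (hf : ∀ i, (f i).IsHomogeneous (a i))
    (hreg : RingTheory.Sequence.IsWeaklyRegular (MvPolynomial (Fin n) K) (List.ofFn f))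
    (I : Ideal (MvPolynomial (Fin n) K)) (hI : ∀ i, f i ∈ I) :
    ∃ (E : Set (Fin n →₀ ℕ)) (J : Ideal (MvPolynomial (Fin n) K)),
      J = Ideal.span ((fun β => monomial β (1 : K)) '' E) ∧
      (∀ i : Fin c, X (Fin.castLE hc i) ^ a i ∈ J) ∧
      ∀ d : ℕ,
        Module.finrank K ↥(J.restrictScalars K ⊓ homogeneousSubmodule (Fin n) K d) =
        Module.finrank K ↥(I.restrictScalars K ⊓ homogeneousSubmodule (Fin n) K d) := by
  obtain ⟨E, h1, h3, h4⟩ := Vale.Agent.P200M.egh_two hc a h2 hmono htop f hf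
    ((Vale.Agent.P200.isReg_iff f).mpr hreg) I hI
  refine ⟨E, _, rfl, fun i => ?_, fun d => ?_⟩
  · rw [X_pow_eq_monomial]
    exact Ideal.subset_span ⟨_, h3 i, rfl⟩
  · obtain ⟨T, hT, e⟩ := Vale.Agent.P200.monomial_ideal (K := K) E h1 d
    exact e.trans (h4 d T hT)

end Vale.Agent.Results.P200.TwoSmall
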