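import Vale.Agent.P200B.Kos2
import Vale.Agent.P200M.Top2

namespace Vale.Agent.Results.P200.TwoSmallBetti

open MvPolynomial

/-- Hilbert functions when all degrees from the third one on are equal, and graded Betti
numbers when all degrees are equal. -/
theorem result {K : Type*} [Field K] {n c : ℕ} (hc : c ≤ n) (a : Fin c → ℕ)
    (h2 : ∀ i, 2 ≤ a i) (hmono : Monotone a)
    (htop : ∀ i j : Fin c, 2 ≤ (i : ℕ) → 2 ≤ (j : ℕ) → a i = a j)
    (f : Fin c → MvPolynomial (Fin n) K) (hf : ∀ i, (f i).IsHomogeneous (a i))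
    (hreg : RingTheory.Sequence.IsWeaklyRegular (MvPolynomial (Fin n) K) (List.ofFn f))
    (I : Ideal (MvPolynomial (Fin n) K)) (hI : ∀ i, f i ∈ I) :
    ∃ (E : Set (Fin n →₀ ℕ)) (J : Ideal (MvPolynomial (Fin n) K)),
      J = Ideal.span ((fun β => monomial β (1 : K)) '' E) ∧
      (∀ i : Fin c, X (Fin.castLE hc i) ^ a i ∈ J) ∧
      (∀ d : ℕ,
        Module.finrank K ↥(J.restrictScalars K ⊓ homogeneousSubmodule (Fin n) K d) =
        Module.finrank K ↥(I.restrictScalars K ⊓ homogeneousSubmodule (Fin n) K d)) ∧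
      ((∀ i j : Fin c, a i = a j) →
        ∀ p j : ℕ, Vale.Agent.P200B.Kos.betti I p j ≤ Vale.Agent.P200B.Kos.betti J p j) := by
  have hr := (Vale.Agent.P200.isReg_iff f).mpr hreg
  by_cases hall : ∀ i j : Fin c, a i = a j
  · obtain ⟨b, hb, hab⟩ : ∃ b, 2 ≤ b ∧ ∀ i, a i = b := by
      rcases Nat.eq_zero_or_pos c with rfl | h
      · exact ⟨2, le_rfl, fun i => i.elim0⟩
      · exact ⟨a ⟨0, h⟩, h2 _, fun i => hall _ _⟩
    obtain ⟨E, h1, h3, h4, h5⟩ := Vale.Agent.P200B.egh_betti hc hb f (fun i => hab i ▸ hf i) hr I hI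
    have h6 : ∀ d, Module.finrank K (Vale.Agent.P200.ipart (Vale.Agent.P200B.mI K E) d) =
        Module.finrank K (Vale.Agent.P200.ipart I d) := fun d => by
      obtain ⟨T, hT, e⟩ := Vale.Agent.P200.monomial_ideal (K := K) E h1 d
      exact e.trans (h4 d T hT)
    refine ⟨E, _, rfl, fun i => ?_, h6, fun _ => Vale.Agent.P200B.kos_le h6 h5⟩
    rw [X_pow_eq_monomial, hab]
    exact Ideal.subset_span ⟨_, h3 _ i.2, rfl⟩
  · obtain ⟨E, h1, h3, h4⟩ := Vale.Agent.P200M.egh_two hc a h2 hmono htop f hf hr I hI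
    refine ⟨E, _, rfl, fun i => ?_, fun d => ?_, fun h => absurd h hall⟩
    · rw [X_pow_eq_monomial]
      exact Ideal.subset_span ⟨_, h3 i, rfl⟩
    · obtain ⟨T, hT, e⟩ := Vale.Agent.P200.monomial_ideal (K := K) E h1 d
      exact e.trans (h4 d T hT)

end Vale.Agent.Results.P200.TwoSmallBetti
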